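import Vale.Agent.P310.H853.Plug

/-!
# P310: the time complexity of deciding Weisfeiler-Leman equivalence

Every deterministic (multitape) Turing machine which decides `≡_k` needs time `n ^ Ω(k)`:
there are `c > 0` and `k₀` such that for every `k ≥ k₀`, every machine deciding `≡_k` with running
time at most `T n` on all pairs of graphs with `n` vertices satisfies `n ^ (c k) ≤ T n` for all
sufficiently large `n`. In particular, there is no function `g` with `g(k) = o(k)` such that for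
every fixed `k ≥ 2` some machine decides `≡_k` in time `O(n ^ g(k))`.
-/

namespace Vale.Agent.Results.P310.WLTime

open Turing Filter Vale.Agent.P310

theorem result :
    (∃ c : ℝ, 0 < c ∧ ∃ k₀ : ℕ, ∀ k : ℕ, k₀ ≤ k →
      ∀ (A : FinTM2) (inp : Bool → A.Γ A.k₀) (yes : A.Γ A.k₁) (T : ℕ → ℕ),
        DecidesWL A inp yes k T → ∀ᶠ n : ℕ in atTop, (n : ℝ) ^ (c * k) ≤ (T n : ℝ)) ∧
    ¬ ∃ g : ℕ → ℝ, g =o[atTop] (fun k : ℕ => (k : ℝ)) ∧
      ∀ k : ℕ, 2 ≤ k → ∃ (A : FinTM2) (inp : Bool → A.Γ A.k₀) (yes : A.Γ A.k₁) (T : ℕ → ℕ),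
        DecidesWL A inp yes k T ∧
          (fun n : ℕ => (T n : ℝ)) =O[atTop] (fun n : ℕ => (n : ℝ) ^ g k) :=
  ⟨strongLowerBound, strongLowerBound.noSublinear⟩

end Vale.Agent.Results.P310.WLTime
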